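import Vale.Agent.Lib.P068.Main

open Set Matroid
open scoped Function

open P068

namespace Vale.Agent.Results.P068.A_almost_uniform

/-- Intersection for an arbitrary matroid and a finite direct sum of almost uniform matroids, and
the perturbation principle behind it. -/
theorem result {α ι : Type*} [Finite ι] :
    (∀ N : Matroid α, ((∀ X, X ⊆ N.E → N.Indep X ∨ N.Spanning X) ∨ N.RankFinite ∨ N✶.RankFinite) →
      AlmostUniform N) ∧
    (∀ (M N : Matroid α) (J X F G : Set α), M.E = N.E → M.Indep J → N.Indep J → F.Finite →
      G.Finite → X ⊆ M.closure ((J ∩ X) ∪ F) → M.E \ X ⊆ N.closure ((J \ X) ∪ G) →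
      SatisfiesIntersection M N) ∧
    (∀ (Ns : ι → Matroid α) (hdis : Pairwise (Disjoint on fun i => (Ns i).E)),
      (∀ i, AlmostUniform (Ns i)) → ∀ M : Matroid α, M.E = ⋃ i, (Ns i).E →
        SatisfiesIntersection M (Matroid.disjointSigma Ns hdis)) := by
  refine ⟨?_, ?_, ?_⟩
  · rintro N (h | h | h)
    · exact almostUniform_of_uniform h
    · exact almostUniform_of_rankFinite h
    · exact almostUniform_of_dual_rankFinite h
  · intro M N J X F G hE hM hN hF hG hX hXc
    exact satisfies_of_almost hE hM hN hF hG hX hXc
  · intro Ns hdis hNs M hE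
    exact satisfies_sum hdis hNs M hE

end Vale.Agent.Results.P068.A_almost_uniform
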